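import Vale.Agent.P171.Main

namespace Vale.Agent.Results.P171.PhaseTransition

open Vale.Agent.P171 MeasureTheory Filter

/-- A bounded measurable, stable, tempered radial pair potential on three-space whose pressure
exists for every activity and is not differentiable in the activity at some point. -/
theorem result : ∃ φ : ℝ → ℝ, Measurable φ ∧ (∃ M : ℝ, ∀ r, |φ r| ≤ M) ∧ IsStable φ ∧
    IsTempered φ ∧ ∃ β : ℝ, 0 < β ∧
      (∀ (L : ℝ) (N : ℕ), IntegrableOn (boltz φ β) (Set.univ.pi fun _ : Fin N => box L)) ∧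
      (∀ z L : ℝ, 0 < z → Summable fun N : ℕ => z ^ N * partitionFn φ β L N) ∧
      ∃ P : ℝ → ℝ, (∀ z, 0 < z →
        Tendsto (fun L : ℝ => Real.log (grand φ β z L) / L ^ 3) atTop (nhds (P z))) ∧
        ∃ z, 0 < z ∧ ¬ DifferentiableAt ℝ P z :=
  Vale.Agent.P171.main

end Vale.Agent.Results.P171.PhaseTransition
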